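import Vale.Agent.Lib.P329c.Basic

/-! First-return theorem: a finite automaton whose transitions, apart from those entering the
base state, never decrease a rank function has all its state languages of generalized star
height at most one. -/

open Computability

namespace Vale.Agent.Lib.P329c

universe u v

variable {α : Type u} {Ω : Type v}

/-- The run from `s` on `w` ends in `t` and never enters `b` after the start. -/
def Avoid (δ : Ω → α → Ω) (b : Ω) : Ω → List α → Ω → Prop
  | s, [], t => s = t
  | s, a :: w, t => δ s a ≠ b ∧ Avoid δ b (δ s a) w t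

theorem Avoid.foldl {δ : Ω → α → Ω} {b : Ω} {s t : Ω} {w : List α}
    (h : Avoid δ b s w t) : w.foldl δ s = t := by
  induction w generalizing s with
  | nil => exact h
  | cons a w ih => exact ih h.2

/-- Words of `A` letters only. -/
theorem avoid_decomp {δ : Ω → α → Ω} {b s t : Ω} (hs : s ≠ b) (w : List α) :
    Avoid δ b s w t ↔
      ((s = t ∧ ∀ x ∈ w, δ s x = s) ∨
        ∃ u a v, w = u ++ a :: v ∧ (∀ x ∈ u, δ s x = s) ∧ δ s a ≠ s ∧ δ s a ≠ b ∧
          Avoid δ b (δ s a) v t) := by
  induction w with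
  | nil =>
    constructor
    · intro h; exact Or.inl ⟨h, by simp⟩
    · rintro (⟨h, -⟩ | ⟨u, a, v, h, -⟩)
      · exact h
      · simp at h
  | cons c w ih =>
    by_cases h1 : δ s c = s
    · have : Avoid δ b s (c :: w) t ↔ Avoid δ b s w t := by
        show (δ s c ≠ b ∧ Avoid δ b (δ s c) w t) ↔ _
        rw [h1]; simp [hs]
      rw [this, ih]
      constructor
      · rintro (⟨h, h'⟩ | ⟨u, a, v, rfl, hu, ha, ha', hv⟩)
        · refine Or.inl ⟨h, ?_⟩
          intro x hx
          rcases List.mem_cons.1 hx with rfl | hx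
          · exact h1
          · exact h' x hx
        · refine Or.inr ⟨c :: u, a, v, rfl, ?_, ha, ha', hv⟩
          intro x hx
          rcases List.mem_cons.1 hx with rfl | hx
          · exact h1
          · exact hu x hx
      · rintro (⟨h, h'⟩ | ⟨u, a, v, hw, hu, ha, ha', hv⟩)
        · exact Or.inl ⟨h, fun x hx => h' x (List.mem_cons_of_mem _ hx)⟩
        · cases u with
          | nil =>
            simp only [List.nil_append, List.cons.injEq] at hw
            obtain ⟨rfl, -⟩ := hw
            exact absurd h1 ha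
          | cons d u =>
            simp only [List.cons_append, List.cons.injEq] at hw
            obtain ⟨rfl, rfl⟩ := hw
            exact Or.inr ⟨u, a, v, rfl, fun x hx => hu x (List.mem_cons_of_mem _ hx), ha, ha', hv⟩
    · constructor
      · rintro ⟨h2, h3⟩
        exact Or.inr ⟨[], c, w, rfl, by simp, h1, h2, h3⟩
      · rintro (⟨h, h'⟩ | ⟨u, a, v, hw, hu, ha, ha', hv⟩)
        · exact absurd (h' c (by simp)) h1
        · cases u with
          | nil =>
            simp only [List.nil_append, List.cons.injEq] at hw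
            obtain ⟨rfl, rfl⟩ := hw
            exact ⟨ha', hv⟩
          | cons d u =>
            simp only [List.cons_append, List.cons.injEq] at hw
            obtain ⟨rfl, -⟩ := hw
            exact absurd (hu c (by simp)) h1

/-- With a rank function, the languages of base-avoiding runs are star-free. -/
theorem avoid_starFree [Finite α] [Finite Ω] (δ : Ω → α → Ω) (b : Ω) (r : Ω → ℕ)
    (hr : ∀ s a, s ≠ b → δ s a = b ∨ δ s a = s ∨ r s < r (δ s a)) (s t : Ω) (hs : s ≠ b) :
    HasGSH 0 (lang fun w => Avoid δ b s w t) := by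
  classical
  cases nonempty_fintype Ω
  obtain ⟨K, hK⟩ : ∃ K, ∀ s, r s ≤ K :=
    ⟨(Finset.univ : Finset Ω).sup r, fun s => Finset.le_sup (Finset.mem_univ s)⟩
  have key : ∀ k s, K - r s = k → s ≠ b → HasGSH 0 (lang fun w => Avoid δ b s w t) := by
    intro k
    induction k using Nat.strong_induction_on with
    | _ k ih =>
      intro s hk hs
      have hA : HasGSH 0 (lang fun w : List α => ∀ x ∈ w, x ∈ {x | δ s x = s}) := hasGSH_subStar _
      have h1 : HasGSH 0 (lang fun w : List α => s = t ∧ ∀ x ∈ w, δ s x = s) := by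
        by_cases hst : s = t
        · refine hA.congr (fun w => ?_)
          show (s = t ∧ ∀ x ∈ w, δ s x = s) ↔ ∀ x ∈ w, δ s x = s
          simp [hst]
        · refine hasGSH_zero.congr (fun w => ?_)
          show (s = t ∧ ∀ x ∈ w, δ s x = s) ↔ False
          simp [hst]
      let F : α → Language α := fun a =>
        if δ s a ≠ s ∧ δ s a ≠ b then
          (lang fun w : List α => ∀ x ∈ w, x ∈ {x | δ s x = s}) * (({[a]} : Language α) *
            lang (fun w => Avoid δ b (δ s a) w t))
        else 0
      have hF : ∀ a, HasGSH 0 (F a) := by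
        intro a
        by_cases ha : δ s a ≠ s ∧ δ s a ≠ b
        · simp only [F, if_pos ha]
          refine hA.mul ((hasGSH_letter a).mul ?_)
          have hlt : r s < r (δ s a) := by
            rcases hr s a hs with h | h | h
            · exact absurd h ha.2
            · exact absurd h ha.1
            · exact h
          have hle := hK (δ s a)
          exact ih (K - r (δ s a)) (by rw [← hk]; omega) (δ s a) rfl ha.2
        · simp only [F, if_neg ha]
          exact hasGSH_zero
      refine (h1.add (HasGSH.iUnion hF)).congr (fun w => ?_)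
      show Avoid δ b s w t ↔ ((s = t ∧ ∀ x ∈ w, δ s x = s) ∨ ∃ a, w ∈ F a)
      rw [avoid_decomp hs]
      apply or_congr Iff.rfl
      constructor
      · rintro ⟨u, a, v, rfl, hu, ha, ha', hv⟩
        refine ⟨a, ?_⟩
        simp only [F, if_pos (And.intro ha ha')]
        rw [Language.mem_mul]
        refine ⟨u, hu, a :: v, ?_, rfl⟩
        rw [Language.mem_mul]
        exact ⟨[a], rfl, v, hv, rfl⟩
      · rintro ⟨a, hw⟩
        by_cases ha : δ s a ≠ s ∧ δ s a ≠ b
        · simp only [F, if_pos ha] at hw
          rw [Language.mem_mul] at hw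
          obtain ⟨u, hu, y, hy, rfl⟩ := hw
          rw [Language.mem_mul] at hy
          obtain ⟨z, rfl, v, hv, rfl⟩ := hy
          exact ⟨u, a, v, rfl, hu, ha.1, ha.2, hv⟩
        · simp only [F, if_neg ha] at hw
          exact absurd hw (Language.notMem_zero _)
  exact key _ s rfl hs

/-- Words from `s` that reach `b` exactly at their end. -/
def Exit (δ : Ω → α → Ω) (b s : Ω) (w : List α) : Prop :=
  ∃ c s' v, w = v ++ [c] ∧ Avoid δ b s v s' ∧ δ s' c = b

theorem Exit.foldl {δ : Ω → α → Ω} {b s : Ω} {w : List α} (h : Exit δ b s w) :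
    w.foldl δ s = b := by
  obtain ⟨c, s', v, rfl, h1, h2⟩ := h
  simp [List.foldl_append, h1.foldl, h2]

/-- First return words to the base. -/
def FirstRet (δ : Ω → α → Ω) (b : Ω) (w : List α) : Prop :=
  ∃ a v, w = a :: v ∧ ((δ b a = b ∧ v = []) ∨ (δ b a ≠ b ∧ Exit δ b (δ b a) v))

theorem FirstRet.foldl {δ : Ω → α → Ω} {b : Ω} {w : List α} (h : FirstRet δ b w) :
    w.foldl δ b = b := by
  obtain ⟨a, v, rfl, ⟨h1, rfl⟩ | ⟨_, h2⟩⟩ := h
  · simpa using h1
  · simpa using h2.foldl

/-- Words from the base that do not return to the base and end in `t`. -/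
def NoRet (δ : Ω → α → Ω) (b t : Ω) (w : List α) : Prop :=
  (w = [] ∧ t = b) ∨ ∃ a v, w = a :: v ∧ δ b a ≠ b ∧ Avoid δ b (δ b a) v t

theorem NoRet.foldl {δ : Ω → α → Ω} {b t : Ω} {w : List α} (h : NoRet δ b t w) :
    w.foldl δ b = t := by
  obtain ⟨rfl, rfl⟩ | ⟨a, v, rfl, _, h2⟩ := h
  · rfl
  · simpa using h2.foldl

theorem kstar_cons_mem {X : Language α} {u v : List α} (hu : u ∈ X) (hv : v ∈ X∗) :
    u ++ v ∈ X∗ := by
  rw [Language.mem_kstar] at hv ⊢
  obtain ⟨L, rfl, hL⟩ := hv
  refine ⟨u :: L, by simp, ?_⟩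
  intro y hy
  rcases List.mem_cons.1 hy with rfl | hy
  · exact hu
  · exact hL y hy

theorem nil_mem_kstar {X : Language α} : ([] : List α) ∈ X∗ := by
  rw [Language.mem_kstar]
  exact ⟨[], rfl, by simp⟩

/-- The parsing of runs by returns to the base. -/
theorem run_parse (δ : Ω → α → Ω) (b t : Ω) (w : List α) : ∀ s, w.foldl δ s = t →
    (s = b → w ∈ (lang (FirstRet δ b))∗ * lang (NoRet δ b t)) ∧
    (s ≠ b → Avoid δ b s w t ∨
      ∃ u v, w = u ++ v ∧ Exit δ b s u ∧ v ∈ (lang (FirstRet δ b))∗ * lang (NoRet δ b t)) := by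
  induction w with
  | nil =>
    intro s hs
    have hs' : s = t := hs
    constructor
    · intro h
      rw [Language.mem_mul]
      exact ⟨[], nil_mem_kstar, [], Or.inl ⟨rfl, by rw [← hs', h]⟩, rfl⟩
    · intro _
      exact Or.inl hs'
  | cons a w ih =>
    intro s hs
    have hs' : w.foldl δ (δ s a) = t := hs
    obtain ⟨ih1, ih2⟩ := ih (δ s a) hs'
    constructor
    · rintro rfl
      by_cases h : δ s a = s
      · have := ih1 h
        rw [Language.mem_mul] at this ⊢
        obtain ⟨x, hx, y, hy, rfl⟩ := this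
        refine ⟨[a] ++ x, kstar_cons_mem ?_ hx, y, hy, by simp⟩
        exact ⟨a, [], rfl, Or.inl ⟨h, rfl⟩⟩
      · rcases ih2 h with h' | ⟨u, v, rfl, hu, hv⟩
        · rw [Language.mem_mul]
          exact ⟨[], nil_mem_kstar, a :: w, Or.inr ⟨a, w, rfl, h, h'⟩, rfl⟩
        · rw [Language.mem_mul] at hv ⊢
          obtain ⟨x, hx, y, hy, rfl⟩ := hv
          refine ⟨(a :: u) ++ x, kstar_cons_mem ?_ hx, y, hy, by simp⟩
          exact ⟨a, u, rfl, Or.inr ⟨h, hu⟩⟩
    · intro hsb
      by_cases h : δ s a = b
      · right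
        refine ⟨[a], w, rfl, ⟨a, s, [], rfl, rfl, h⟩, ih1 h⟩
      · rcases ih2 h with h' | ⟨u, v, rfl, hu, hv⟩
        · exact Or.inl ⟨h, h'⟩
        · right
          refine ⟨a :: u, v, rfl, ?_, hv⟩
          obtain ⟨c, s', x, rfl, h1, h2⟩ := hu
          exact ⟨c, s', a :: x, rfl, ⟨h, h1⟩, h2⟩

theorem kstar_firstRet_foldl {δ : Ω → α → Ω} {b : Ω} {w : List α}
    (h : w ∈ (lang (FirstRet δ b))∗) : w.foldl δ b = b := by
  rw [Language.mem_kstar] at h
  obtain ⟨L, rfl, hL⟩ := h
  induction L with
  | nil => rfl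
  | cons x L ih =>
    have hx : x.foldl δ b = b := FirstRet.foldl (hL x (by simp))
    simp only [List.flatten_cons, List.foldl_append, hx]
    exact ih (fun y hy => hL y (List.mem_cons_of_mem _ hy))

/-- If the base-avoiding languages are star-free then every state language of the automaton has
generalized star height at most one. -/
theorem firstReturn_of_avoid [Finite α] [Finite Ω] (δ : Ω → α → Ω) (b : Ω)
    (hA : ∀ s t, s ≠ b → HasGSH 0 (lang fun w => Avoid δ b s w t)) (s t : Ω) :
    HasGSH 1 (lang fun w => w.foldl δ s = t) := by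
  classical
  have hExit : ∀ s, s ≠ b → HasGSH 0 (lang (Exit δ b s)) := by
    intro s hs
    let F : α × Ω → Language α := fun p =>
      if δ p.2 p.1 = b then (lang fun w => Avoid δ b s w p.2) * {[p.1]} else 0
    have hF : ∀ p, HasGSH 0 (F p) := by
      intro p
      by_cases h : δ p.2 p.1 = b
      · simp only [F, if_pos h]
        exact (hA s p.2 hs).mul (hasGSH_letter _)
      · simp only [F, if_neg h]
        exact hasGSH_zero
    refine (HasGSH.iUnion hF).congr (fun w => ?_)
    show Exit δ b s w ↔ ∃ p, w ∈ F p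
    constructor
    · rintro ⟨c, s', v, rfl, h1, h2⟩
      refine ⟨(c, s'), ?_⟩
      simp only [F, if_pos h2]
      rw [Language.mem_mul]
      exact ⟨v, h1, [c], rfl, rfl⟩
    · rintro ⟨⟨c, s'⟩, hw⟩
      by_cases h : δ s' c = b
      · simp only [F, if_pos h] at hw
        rw [Language.mem_mul] at hw
        obtain ⟨v, hv, y, rfl, rfl⟩ := hw
        exact ⟨c, s', v, rfl, hv, h⟩
      · simp only [F, if_neg h] at hw
        exact absurd hw (Language.notMem_zero _)
  have hQ : HasGSH 0 (lang (FirstRet δ b)) := by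
    let F : α → Language α := fun a =>
      if δ b a = b then {[a]} else {[a]} * lang (Exit δ b (δ b a))
    have hF : ∀ a, HasGSH 0 (F a) := by
      intro a
      by_cases h : δ b a = b
      · simp only [F, if_pos h]
        exact hasGSH_letter a
      · simp only [F, if_neg h]
        exact (hasGSH_letter a).mul (hExit _ h)
    refine (HasGSH.iUnion hF).congr (fun w => ?_)
    show FirstRet δ b w ↔ ∃ a, w ∈ F a
    constructor
    · rintro ⟨a, v, rfl, ⟨h1, rfl⟩ | ⟨h1, h2⟩⟩
      · refine ⟨a, ?_⟩
        simp only [F, if_pos h1]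
        rfl
      · refine ⟨a, ?_⟩
        simp only [F, if_neg h1]
        rw [Language.mem_mul]
        exact ⟨[a], rfl, v, h2, rfl⟩
    · rintro ⟨a, hw⟩
      by_cases h : δ b a = b
      · simp only [F, if_pos h] at hw
        have hw' : w = [a] := hw
        exact ⟨a, [], hw', Or.inl ⟨h, rfl⟩⟩
      · simp only [F, if_neg h] at hw
        rw [Language.mem_mul] at hw
        obtain ⟨x, rfl, v, hv, rfl⟩ := hw
        exact ⟨a, v, rfl, Or.inr ⟨h, hv⟩⟩
  have hN : ∀ t, HasGSH 0 (lang (NoRet δ b t)) := by
    intro t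
    let F : α → Language α := fun a =>
      if δ b a ≠ b then {[a]} * lang (fun w => Avoid δ b (δ b a) w t) else 0
    have hF : ∀ a, HasGSH 0 (F a) := by
      intro a
      by_cases h : δ b a ≠ b
      · simp only [F, if_pos h]
        exact (hasGSH_letter a).mul (hA _ t h)
      · simp only [F, if_neg h]
        exact hasGSH_zero
    have h0 : HasGSH 0 (lang fun w : List α => w = [] ∧ t = b) := by
      by_cases h : t = b
      · refine hasGSH_one.congr (fun w => ?_)
        show (w = [] ∧ t = b) ↔ w = []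
        simp [h]
      · refine hasGSH_zero.congr (fun w => ?_)
        show (w = [] ∧ t = b) ↔ False
        simp [h]
    refine (h0.add (HasGSH.iUnion hF)).congr (fun w => ?_)
    show NoRet δ b t w ↔ ((w = [] ∧ t = b) ∨ ∃ a, w ∈ F a)
    apply or_congr Iff.rfl
    constructor
    · rintro ⟨a, v, rfl, h1, h2⟩
      refine ⟨a, ?_⟩
      simp only [F, if_pos h1]
      rw [Language.mem_mul]
      exact ⟨[a], rfl, v, h2, rfl⟩
    · rintro ⟨a, hw⟩
      by_cases h : δ b a ≠ b
      · simp only [F, if_pos h] at hw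
        rw [Language.mem_mul] at hw
        obtain ⟨x, rfl, v, hv, rfl⟩ := hw
        exact ⟨a, v, rfl, h, hv⟩
      · simp only [F, if_neg h] at hw
        exact absurd hw (Language.notMem_zero _)
  have hL : ∀ t, HasGSH 1 ((lang (FirstRet δ b))∗ * lang (NoRet δ b t)) :=
    fun t => hQ.star.mul ((hN t).mono (Nat.zero_le _))
  have hb : ∀ t (w : List α), w ∈ (lang (FirstRet δ b))∗ * lang (NoRet δ b t) → w.foldl δ b = t := by
    intro t w hw
    rw [Language.mem_mul] at hw
    obtain ⟨x, hx, y, hy, rfl⟩ := hw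
    rw [List.foldl_append, kstar_firstRet_foldl hx]
    exact NoRet.foldl hy
  by_cases hs : s = b
  · subst hs
    refine (hL t).congr (fun w => ?_)
    show w.foldl δ s = t ↔ _
    exact ⟨fun h => (run_parse δ s t w s h).1 rfl, hb t w⟩
  · have h2 := (hA s t hs).mono (Nat.zero_le 1)
    have h3 := ((hExit s hs).mono (Nat.zero_le 1)).mul (hL t)
    refine (h2.add h3).congr (fun w => ?_)
    show w.foldl δ s = t ↔ (Avoid δ b s w t ∨ w ∈ lang (Exit δ b s) * _)
    constructor
    · intro h
      rcases (run_parse δ b t w s h).2 hs with h' | ⟨u, v, rfl, hu, hv⟩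
      · exact Or.inl h'
      · right
        rw [Language.mem_mul]
        exact ⟨u, hu, v, hv, rfl⟩
    · rintro (h | h)
      · exact h.foldl
      · rw [Language.mem_mul] at h
        obtain ⟨u, hu, v, hv, rfl⟩ := h
        rw [List.foldl_append, Exit.foldl hu]
        exact hb t v hv

/-- First-return theorem with a rank function. -/
theorem firstReturn [Finite α] [Finite Ω] (δ : Ω → α → Ω) (b : Ω) (r : Ω → ℕ)
    (hr : ∀ s a, s ≠ b → δ s a = b ∨ δ s a = s ∨ r s < r (δ s a)) (s t : Ω) :
    HasGSH 1 (lang fun w => w.foldl δ s = t) :=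
  firstReturn_of_avoid δ b (fun s t hs => avoid_starFree δ b r hr s t hs) s t

end Vale.Agent.Lib.P329c
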