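import Vale.Agent.Lib.P329c.Defs

/-! Closure properties of languages of bounded generalized star height. -/

open Computability

namespace Vale.Agent.Lib.P329c

universe u

variable {α : Type u} {n m : ℕ} {L L' : Language α}

/-- The language of words satisfying a predicate. -/
def lang (p : List α → Prop) : Language α := {w | p w}

theorem mem_lang {p : List α → Prop} {w : List α} : w ∈ lang p ↔ p w := Iff.rfl

theorem HasGSH.mono (h : HasGSH n L) (hnm : n ≤ m) : HasGSH m L := by
  obtain ⟨e, he, rfl⟩ := h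
  exact ⟨e, he.trans hnm, rfl⟩

theorem HasGSH.congr (h : HasGSH n L) (H : ∀ w, w ∈ L' ↔ w ∈ L) : HasGSH n L' := by
  have : L' = L := Language.ext H
  rw [this]; exact h

theorem hasGSH_zero : HasGSH n (0 : Language α) := ⟨GRE.zero, Nat.zero_le _, rfl⟩

theorem hasGSH_one : HasGSH n (1 : Language α) := ⟨GRE.one, Nat.zero_le _, rfl⟩

theorem hasGSH_letter (a : α) : HasGSH n ({[a]} : Language α) :=
  ⟨GRE.letter a, Nat.zero_le _, rfl⟩

theorem HasGSH.add (h : HasGSH n L) (h' : HasGSH n L') : HasGSH n (L + L') := by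
  obtain ⟨e, he, rfl⟩ := h
  obtain ⟨e', he', rfl⟩ := h'
  exact ⟨GRE.add e e', max_le he he', rfl⟩

theorem HasGSH.mul (h : HasGSH n L) (h' : HasGSH n L') : HasGSH n (L * L') := by
  obtain ⟨e, he, rfl⟩ := h
  obtain ⟨e', he', rfl⟩ := h'
  exact ⟨GRE.mul e e', max_le he he', rfl⟩

theorem HasGSH.compl (h : HasGSH n L) : HasGSH n Lᶜ := by
  obtain ⟨e, he, rfl⟩ := h
  exact ⟨GRE.compl e, he, rfl⟩

theorem HasGSH.star (h : HasGSH n L) : HasGSH (n + 1) (L∗) := by
  obtain ⟨e, he, rfl⟩ := h
  exact ⟨GRE.star e, Nat.succ_le_succ he, rfl⟩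

theorem HasGSH.inf (h : HasGSH n L) (h' : HasGSH n L') : HasGSH n (L ⊓ L') := by
  have : L ⊓ L' = (Lᶜ + L'ᶜ)ᶜ := by
    ext w
    show (w ∈ L ∧ w ∈ L') ↔ ¬ (¬ w ∈ L ∨ ¬ w ∈ L')
    tauto
  rw [this]
  exact (h.compl.add h'.compl).compl

/-- Predicate form: union. -/
theorem HasGSH.or {p q : List α → Prop} (h : HasGSH n (lang p))
    (h' : HasGSH n (lang q)) :
    HasGSH n (lang fun w => p w ∨ q w) := h.add h'

/-- Predicate form: intersection. -/
theorem HasGSH.and {p q : List α → Prop} (h : HasGSH n (lang p))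
    (h' : HasGSH n (lang q)) :
    HasGSH n (lang fun w => p w ∧ q w) := h.inf h'

/-- Predicate form: complement. -/
theorem HasGSH.not {p : List α → Prop} (h : HasGSH n (lang p)) :
    HasGSH n (lang fun w => ¬ p w) := h.compl

theorem hasGSH_top : HasGSH n (⊤ : Language α) := by
  have : (⊤ : Language α) = (0 : Language α)ᶜ := by
    ext w
    show True ↔ ¬ False
    simp
  rw [this]
  exact hasGSH_zero.compl

/-- A finite union, indexed by a list. -/
theorem HasGSH.listSup {ι : Type*} (l : List ι) {F : ι → Language α}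
    (h : ∀ i ∈ l, HasGSH n (F i)) :
    HasGSH n (lang fun w => ∃ i ∈ l, w ∈ F i) := by
  induction l with
  | nil =>
    refine hasGSH_zero.congr (fun w => ?_)
    show (∃ i ∈ ([] : List ι), w ∈ F i) ↔ False
    simp
  | cons a l ih =>
    have h1 := h a (by simp)
    have h2 := ih (fun i hi => h i (by simp [hi]))
    refine (h1.add h2).congr (fun w => ?_)
    show (∃ i ∈ a :: l, w ∈ F i) ↔ (w ∈ F a ∨ ∃ i ∈ l, w ∈ F i)
    simp

/-- A finite union, indexed by a finite type. -/
theorem HasGSH.iUnion {ι : Type*} [Finite ι] {F : ι → Language α}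
    (h : ∀ i, HasGSH n (F i)) :
    HasGSH n (lang fun w => ∃ i, w ∈ F i) := by
  classical
  cases nonempty_fintype ι
  refine (HasGSH.listSup (Finset.univ : Finset ι).toList (fun i _ => h i)).congr (fun w => ?_)
  show (∃ i, w ∈ F i) ↔ ∃ i ∈ (Finset.univ : Finset ι).toList, w ∈ F i
  simp

/-- A finite intersection, indexed by a finite type. -/
theorem HasGSH.iInter {ι : Type*} [Finite ι] {F : ι → Language α}
    (h : ∀ i, HasGSH n (F i)) :
    HasGSH n (lang fun w => ∀ i, w ∈ F i) := by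
  have := (HasGSH.iUnion (fun i => (h i).compl)).compl
  refine this.congr (fun w => ?_)
  show (∀ i, w ∈ F i) ↔ ¬ ∃ i, ¬ w ∈ F i
  simp

/-- A single word. -/
theorem hasGSH_word (u : List α) : HasGSH n ({u} : Language α) := by
  induction u with
  | nil => exact hasGSH_one
  | cons a u ih =>
    refine ((hasGSH_letter a).mul ih).congr (fun w => ?_)
    rw [Language.mem_mul]
    show w = a :: u ↔ ∃ x, x = [a] ∧ ∃ y, y = u ∧ x ++ y = w
    constructor
    · rintro rfl; exact ⟨[a], rfl, u, rfl, rfl⟩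
    · rintro ⟨x, rfl, y, rfl, rfl⟩; rfl

/-- The one-letter words with letter in a set `A`. -/
theorem hasGSH_letters [Finite α] (A : Set α) :
    HasGSH n (lang fun w => ∃ a ∈ A, w = [a]) := by
  classical
  have := HasGSH.iUnion (n := n) (F := fun a : A => ({[(a : α)]} : Language α))
    (fun a => hasGSH_letter _)
  refine this.congr (fun w => ?_)
  show (∃ a ∈ A, w = [a]) ↔ ∃ a : A, w = [(a : α)]
  simp

/-- Words all of whose letters lie in a set `A` form a star-free language. -/
theorem hasGSH_subStar [Finite α] (A : Set α) :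
    HasGSH n (lang fun w : List α => ∀ x ∈ w, x ∈ A) := by
  have h := ((hasGSH_top (n := n) (α := α)).mul
    (hasGSH_letters (n := n) (Aᶜ))).mul (hasGSH_top (n := n) (α := α))
  refine h.compl.congr (fun w => ?_)
  show (∀ x ∈ w, x ∈ A) ↔ ¬ w ∈ (⊤ * (lang fun w => ∃ a ∈ Aᶜ, w = [a]) : Language α) * ⊤
  rw [Language.mem_mul]
  constructor
  · rintro h ⟨x, hx, y, -, rfl⟩
    rw [Language.mem_mul] at hx
    obtain ⟨u, -, v, ⟨a, ha, rfl⟩, rfl⟩ := hx
    exact ha (h a (by simp))
  · intro h x hx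
    by_contra hxA
    obtain ⟨s, t, rfl⟩ := List.append_of_mem hx
    apply h
    refine ⟨s ++ [x], ?_, t, trivial, by simp⟩
    rw [Language.mem_mul]
    exact ⟨s, trivial, [x], ⟨x, hxA, rfl⟩, rfl⟩

end Vale.Agent.Lib.P329c
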