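import Vale.Agent.Lib.P329c.Counts

/-! Collection in groups of nilpotency class at most three: the value of a word is determined by
letter counts, by counts of pairs and by counts of triples. -/

open Computability

namespace Vale.Agent.Lib.P329c

universe u v w x

section PosM

variable {α : Type u} {Z : Type x} [CommMonoid Z]

open Classical in
/-- The product of `F` over the prefixes of `w` that precede an occurrence of `y`. -/
noncomputable def posMAux (F : List α → Z) (y : α) : List α → List α → Z
  | _, [] => 1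
  | p, l :: w => (if l = y then F p else 1) * posMAux F y (p ++ [l]) w

/-- The product of `F` over the prefixes of `w` that precede an occurrence of `y`. -/
noncomputable def posM (F : List α → Z) (y : α) (w : List α) : Z := posMAux F y [] w

@[simp] theorem posM_nil (F : List α → Z) (y : α) : posM F y [] = 1 := rfl

open Classical in
theorem posMAux_snoc (F : List α → Z) (y : α) (w : List α) (l : α) (p : List α) :
    posMAux F y p (w ++ [l]) = posMAux F y p w * (if l = y then F (p ++ w) else 1) := by
  induction w generalizing p with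
  | nil => simp [posMAux]
  | cons c w ih =>
    simp only [List.cons_append, posMAux]
    rw [ih]
    simp [mul_assoc]

open Classical in
theorem posM_snoc (F : List α → Z) (y : α) (w : List α) (l : α) :
    posM F y (w ++ [l]) = posM F y w * (if l = y then F w else 1) := by
  unfold posM
  rw [posMAux_snoc]
  simp

theorem posM_mul (F F' : List α → Z) (y : α) (w : List α) :
    posM (fun p => F p * F' p) y w = posM F y w * posM F' y w := by
  classical
  induction w using List.reverseRecOn with
  | nil => simp
  | append_singleton w l ih =>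
    simp only [posM_snoc, ih]
    by_cases h : l = y
    · simp only [if_pos h]
      exact mul_mul_mul_comm _ _ _ _
    · simp [h]

theorem posM_pow (κ : Z) (f : List α → ℕ) (y : α) (w : List α) :
    posM (fun p => κ ^ f p) y w = κ ^ pos f y w := by
  classical
  induction w using List.reverseRecOn with
  | nil => simp
  | append_singleton w l ih =>
    simp only [posM_snoc, pos_snoc, ih, pow_add]
    by_cases h : l = y <;> simp [h]

theorem posM_one (y : α) (w : List α) : posM (fun _ => (1 : Z)) y w = 1 := by
  classical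
  induction w using List.reverseRecOn with
  | nil => simp
  | append_singleton w l ih =>
    simp only [posM_snoc, ih]
    by_cases h : l = y <;> simp [h]

/-- The position product of `F` is measurable for every letter. -/
def GoodF (F : List α → Z) : Prop := ∀ l, Meas (posM F l)

theorem goodF_one : GoodF (fun _ : List α => (1 : Z)) := by
  intro l
  have : posM (fun _ : List α => (1 : Z)) l = fun _ => 1 := funext (posM_one l)
  rw [this]
  exact meas_const 1

theorem GoodF.mul [Finite Z] {F F' : List α → Z} (h : GoodF F) (h' : GoodF F') :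
    GoodF (fun p => F p * F' p) := by
  intro l
  have : posM (fun p => F p * F' p) l = fun w => posM F l w * posM F' l w :=
    funext (posM_mul F F' l)
  rw [this]
  exact (h l).mul (h' l)

theorem GoodF.listProd [Finite Z] {ι' : Type*} (L : List ι') {F : ι' → List α → Z}
    (h : ∀ i ∈ L, GoodF (F i)) : GoodF (fun p => (L.map fun i => F i p).prod) := by
  induction L with
  | nil => simpa using goodF_one
  | cons a L ih =>
    simp only [List.map_cons, List.prod_cons]
    exact (h a (by simp)).mul (ih (fun i hi => h i (List.mem_cons_of_mem _ hi)))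

theorem GoodF.finsetProd [Finite Z] {ι' : Type*} (s : Finset ι') {F : ι' → List α → Z}
    (h : ∀ i ∈ s, GoodF (F i)) : GoodF (fun p => ∏ i ∈ s, F i p) := by
  classical
  induction s using Finset.induction_on with
  | empty => simpa using goodF_one
  | insert a s ha ih =>
    simp only [Finset.prod_insert ha]
    exact (h a (by simp)).mul (ih (fun i hi => h i (Finset.mem_insert_of_mem hi)))

end PosM

section PowGood

variable {α : Type u} {Z : Type x} [CommGroup Z] [Finite Z]

theorem goodF_pow (κ : Z) {f : List α → ℕ} (hf : ∀ l, ModMeas (pos f l)) :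
    GoodF (fun p => κ ^ f p) := by
  intro l
  have : posM (fun p => κ ^ f p) l = fun w => κ ^ pos f l w := funext (posM_pow κ f l)
  rw [this]
  exact (hf l).pow κ

end PowGood

section Monoid

variable {α : Type u} {β : Type v} [Monoid β] [Finite β]

theorem Meas.listProd {ι' : Type*} (L : List ι') {f : ι' → List α → β}
    (h : ∀ i ∈ L, Meas (f i)) : Meas (fun w => (L.map fun i => f i w).prod) := by
  induction L with
  | nil => simpa using meas_const (1 : β)
  | cons a L ih =>
    simp only [List.map_cons, List.prod_cons]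
    exact (h a (by simp)).mul (ih (fun i hi => h i (List.mem_cons_of_mem _ hi)))

end Monoid

section Comm

variable {G : Type v} [Group G]

/-- The left-normed commutator. -/
def cm (a b : G) : G := a⁻¹ * b⁻¹ * a * b

theorem conj_eq_mul_cm (a b : G) : b⁻¹ * a * b = a * cm a b := by
  simp [cm, mul_assoc]

theorem cm_mul_left (a b h : G) : cm (a * b) h = (b⁻¹ * cm a h * b) * cm b h := by
  simp [cm, mul_assoc]

@[simp] theorem cm_one_left (h : G) : cm (1 : G) h = 1 := by
  simp [cm]

end Comm

/-- The data of an abelian normal layer and a central layer below it. -/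
structure Layers (G : Type v) (A : Type w) (Z : Type x) [Group G] [CommGroup A] [CommGroup Z] where
  ι : A →* G
  ζ : Z →* G
  central : ∀ z h, ζ z * h = h * ζ z
  inj : Function.Injective ζ
  B : G → A →* Z
  hB : ∀ g c, ζ (B g c) = cm (ι c) g
  cA : G → G → A
  hcA : ∀ a b, ι (cA a b) = cm a b

namespace Layers

variable {G : Type v} {A : Type w} {Z : Type x} [Group G] [CommGroup A] [CommGroup Z]
  (T : Layers G A Z)

include T in
theorem conj_iota (g : G) (c : A) : g⁻¹ * T.ι c * g = T.ι c * T.ζ (T.B g c) := by
  rw [conj_eq_mul_cm, T.hB]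

theorem B_mul (g h : G) (c : A) : T.B (g * h) c = T.B g c * T.B h c := by
  apply T.inj
  rw [T.hB, map_mul, T.hB, T.hB]
  have h1 := T.conj_iota h c
  have h2 := T.conj_iota g c
  have h3 : (g * h)⁻¹ * T.ι c * (g * h) = T.ι c * (T.ζ (T.B h c) * T.ζ (T.B g c)) := by
    calc (g * h)⁻¹ * T.ι c * (g * h) = h⁻¹ * (g⁻¹ * T.ι c * g) * h := by simp [mul_assoc]
      _ = h⁻¹ * (T.ι c * T.ζ (T.B g c)) * h := by rw [h2]
      _ = (h⁻¹ * T.ι c * h) * T.ζ (T.B g c) := by
          rw [mul_assoc, mul_assoc, T.central, mul_assoc, mul_assoc]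
      _ = T.ι c * (T.ζ (T.B h c) * T.ζ (T.B g c)) := by rw [h1, mul_assoc]
  have h4 : cm (T.ι c) (g * h) = (T.ι c)⁻¹ * ((g * h)⁻¹ * T.ι c * (g * h)) := by
    simp [cm, mul_assoc]
  rw [h4, h3]
  rw [← T.hB, ← T.hB, ← map_mul, ← map_mul, mul_comm]
  simp

theorem B_one (c : A) : T.B 1 c = 1 := by
  apply T.inj
  rw [T.hB]
  simp [cm]

theorem B_pow (g : G) (n : ℕ) (c : A) : T.B (g ^ n) c = (T.B g c) ^ n := by
  induction n with
  | zero => simp [B_one]
  | succ n ih => rw [pow_succ, B_mul, ih, pow_succ]

/-- Commutator of a product whose first factor has known commutator. -/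
theorem cm_mul (a b h : G) (c : A) (z : Z) (ha : cm a h = T.ι c * T.ζ z) :
    cm (a * b) h = T.ι c * T.ζ (T.B b c * z) * cm b h := by
  rw [cm_mul_left, ha, map_mul]
  congr 1
  calc b⁻¹ * (T.ι c * T.ζ z) * b = (b⁻¹ * T.ι c * b) * T.ζ z := by
        rw [mul_assoc, mul_assoc, T.central, mul_assoc, mul_assoc]
    _ = T.ι c * (T.ζ (T.B b c) * T.ζ z) := by rw [T.conj_iota, mul_assoc]

theorem cm_pow (x h : G) (n : ℕ) :
    cm (x ^ n) h = T.ι ((T.cA x h) ^ n) * T.ζ ((T.B x (T.cA x h)) ^ (n.choose 2)) := by
  induction n with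
  | zero => simp
  | succ n ih =>
    rw [pow_succ, T.cm_mul _ _ _ _ _ ih, ← T.hcA x h, map_pow (T.B x), mul_assoc, T.central,
      ← mul_assoc, ← map_mul, ← pow_succ, ← pow_add, Nat.choose_succ_succ' n 1]
    simp

variable {α : Type u}

/-- The ordered product of powers of the letters. -/
def P (g : α → G) (L : List α) (a : α → ℕ) : G := (L.map fun y => g y ^ a y).prod

theorem B_P (g : α → G) (L : List α) (a : α → ℕ) (c : A) :
    T.B (P g L a) c = (L.map fun z => (T.B (g z) c) ^ a z).prod := by
  induction L with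
  | nil => simp [P, B_one]
  | cons y L ih =>
    have : P g (y :: L) a = g y ^ a y * P g L a := by simp [P]
    rw [this, B_mul, B_pow, ih]
    simp

/-- The abelian part of a commutator with an ordered product. -/
def Kq (g : α → G) (h : G) (L : List α) (a : α → ℕ) : A :=
  (L.map fun y => (T.cA (g y) h) ^ a y).prod

/-- The central part of a commutator with an ordered product. -/
def Dq (g : α → G) (h : G) : List α → (α → ℕ) → Z
  | [], _ => 1
  | y :: L, a => (T.B (g y) (T.cA (g y) h)) ^ ((a y).choose 2) *
      (L.map fun z => (T.B (g z) (T.cA (g y) h)) ^ (a z * a y)).prod * Dq g h L a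

theorem list_prod_pow {ι' M : Type*} [CommMonoid M] (L : List ι') (f : ι' → M) (n : ℕ) :
    (L.map f).prod ^ n = (L.map fun z => f z ^ n).prod := by
  induction L with
  | nil => simp
  | cons y L ih => simp [mul_pow, ih]

theorem mul_layers (a b : A) (z z' : Z) :
    T.ι a * T.ζ z * (T.ι b * T.ζ z') = T.ι (a * b) * T.ζ (z * z') := by
  rw [map_mul, map_mul, mul_assoc, ← mul_assoc (T.ζ z), T.central, mul_assoc, mul_assoc]

theorem cm_P (g : α → G) (h : G) (L : List α) (a : α → ℕ) :
    cm (P g L a) h = T.ι (T.Kq g h L a) * T.ζ (T.Dq g h L a) := by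
  induction L with
  | nil => simp [P, Kq, Dq]
  | cons y L ih =>
    have e : P g (y :: L) a = g y ^ a y * P g L a := by simp [P]
    rw [e, T.cm_mul _ _ _ _ _ (T.cm_pow (g y) h (a y)), ih]
    have h1 : T.B (P g L a) ((T.cA (g y) h) ^ a y) =
        (L.map fun z => (T.B (g z) (T.cA (g y) h)) ^ (a z * a y)).prod := by
      rw [map_pow, B_P, list_prod_pow]
      simp [pow_mul]
    rw [h1, T.mul_layers]
    simp only [Kq, Dq, List.map_cons, List.prod_cons]
    congr 2
    rw [mul_comm (List.prod _) ((T.B (g y) (T.cA (g y) h)) ^ _)]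

theorem P_congr (g : α → G) (L : List α) {a b : α → ℕ} (h : ∀ y ∈ L, a y = b y) :
    P g L a = P g L b := by
  unfold P
  congr 1
  exact List.map_congr_left (fun y hy => by rw [h y hy])

open Classical in
theorem P_step (g : α → G) (L1 L2 : List α) (l : α) (h1 : l ∉ L1) (h2 : l ∉ L2) (a : α → ℕ) :
    P g (L1 ++ l :: L2) a * g l =
      P g (L1 ++ l :: L2) (Function.update a l (a l + 1)) * cm (P g L2 a) (g l) := by
  have e : ∀ b, P g (L1 ++ l :: L2) b = P g L1 b * (g l ^ b l * P g L2 b) := by
    intro b
    simp [P, List.prod_append]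
  have e1 : P g L1 (Function.update a l (a l + 1)) = P g L1 a :=
    P_congr g L1 (fun y hy => by
      have : y ≠ l := fun h => h1 (h ▸ hy)
      simp [this])
  have e2 : P g L2 (Function.update a l (a l + 1)) = P g L2 a :=
    P_congr g L2 (fun y hy => by
      have : y ≠ l := fun h => h2 (h ▸ hy)
      simp [this])
  rw [e, e, e1, e2]
  simp [cm, pow_succ, mul_assoc]

/-- The vector of letter counts. -/
noncomputable def ctv (w : List α) : α → ℕ := fun x => cnt {x} w

open Classical in
theorem ctv_snoc (w : List α) (l : α) :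
    ctv (w ++ [l]) = Function.update (ctv w) l (ctv w l + 1) := by
  funext x
  unfold ctv
  rw [cnt_single_snoc]
  by_cases h : x = l
  · subst h
    simp
  · have : l ≠ x := Ne.symm h
    simp [h, this]

section Master

variable [Fintype α] (g : α → G) (L2 : α → List α)

/-- The collected abelian part of a word. -/
noncomputable def Rw (w : List α) : A :=
  ∏ l', ((L2 l').map fun y => (T.cA (g y) (g l')) ^ (pos (cnt {y}) l' w)).prod

/-- The central contribution of one letter after a prefix. -/
noncomputable def Fl (l : α) (p : List α) : Z :=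
  T.B (g l) (T.Rw g L2 p) * T.Dq g (g l) (L2 l) (ctv p)

/-- The collected central part of a word. -/
noncomputable def Tw (w : List α) : Z := ∏ l, posM (T.Fl g L2 l) l w

open Classical in
theorem list_pow_add_ite {M ι' : Type*} [CommMonoid M] (L : List ι') (c : ι' → M) (x u : ι' → ℕ)
    (q : Prop) :
    (L.map fun y => c y ^ (x y + if q then u y else 0)).prod =
      (L.map fun y => c y ^ x y).prod * if q then (L.map fun y => c y ^ u y).prod else 1 := by
  by_cases hq : q
  · simp only [if_pos hq, pow_add]
    induction L with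
    | nil => simp
    | cons a L ih =>
      simp only [List.map_cons, List.prod_cons, ih]
      exact mul_mul_mul_comm _ _ _ _
  · simp [hq]

theorem Rw_snoc (w : List α) (l : α) :
    T.Rw g L2 (w ++ [l]) = T.Rw g L2 w * T.Kq g (g l) (L2 l) (ctv w) := by
  classical
  unfold Rw
  simp only [pos_snoc, list_pow_add_ite, Finset.prod_mul_distrib]
  congr 1
  rw [Finset.prod_ite_eq]
  simp [Kq, ctv]

theorem Tw_snoc (w : List α) (l : α) :
    T.Tw g L2 (w ++ [l]) = T.Tw g L2 w * T.Fl g L2 l w := by
  classical
  unfold Tw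
  simp only [posM_snoc, Finset.prod_mul_distrib]
  congr 1
  rw [Finset.prod_ite_eq]
  simp

theorem Rw_nil : T.Rw g L2 [] = 1 := by
  simp [Rw]

theorem Tw_nil : T.Tw g L2 [] = 1 := by
  simp [Tw]

/-- The collection formula. -/
theorem master (L : List α) (hL : ∀ l, ∃ L1, L = L1 ++ l :: L2 l ∧ l ∉ L1 ∧ l ∉ L2 l)
    (w : List α) :
    (w.map g).prod = P g L (ctv w) * T.ι (T.Rw g L2 w) * T.ζ (T.Tw g L2 w) := by
  classical
  induction w using List.reverseRecOn with
  | nil =>
    have : P g L (ctv []) = 1 := by
      unfold P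
      have h0 : ∀ y ∈ L, g y ^ ctv [] y = 1 := by
        intro y _
        simp [ctv]
      rw [List.map_congr_left h0]
      simp
    simp [this, Rw_nil, Tw_nil]
  | append_singleton w l ih =>
    obtain ⟨L1, hL1, h1, h2⟩ := hL l
    have hstep := P_step g L1 (L2 l) l h1 h2 (ctv w)
    rw [← hL1] at hstep
    have hcm := T.cm_P g (g l) (L2 l) (ctv w)
    rw [hcm] at hstep
    rw [List.map_append, List.prod_append, ih, ctv_snoc, Rw_snoc, Tw_snoc]
    simp only [List.map_cons, List.map_nil, List.prod_cons, List.prod_nil, mul_one]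
    set X := P g L (ctv w)
    set X' := P g L (Function.update (ctv w) l (ctv w l + 1))
    set R := T.Rw g L2 w
    set Q := T.Tw g L2 w
    set K := T.Kq g (g l) (L2 l) (ctv w)
    set D := T.Dq g (g l) (L2 l) (ctv w)
    have hF : T.Fl g L2 l w = T.B (g l) R * D := rfl
    rw [hF]
    have hconj := T.conj_iota (g l) R
    calc X * T.ι R * T.ζ Q * g l = X * T.ι R * g l * T.ζ Q := by
          rw [mul_assoc, T.central, ← mul_assoc]
      _ = (X * g l) * ((g l)⁻¹ * T.ι R * g l) * T.ζ Q := by simp [mul_assoc]
      _ = X' * (T.ι K * T.ζ D) * (T.ι R * T.ζ (T.B (g l) R)) * T.ζ Q := by rw [hstep, hconj]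
      _ = X' * ((T.ι K * T.ζ D) * (T.ι R * T.ζ (T.B (g l) R))) * T.ζ Q := by simp only [mul_assoc]
      _ = X' * (T.ι (K * R) * T.ζ (D * T.B (g l) R)) * T.ζ Q := by rw [T.mul_layers]
      _ = X' * T.ι (R * K) * T.ζ (Q * (T.B (g l) R * D)) := by
          rw [mul_comm K R, show Q * (T.B (g l) R * D) = (D * T.B (g l) R) * Q by
            rw [mul_comm Q, mul_comm D], map_mul T.ζ (D * T.B (g l) R) Q]
          simp only [mul_assoc]

end Master

section MeasPart

variable [Finite α]

theorem meas_P [Finite G] (g : α → G) (L : List α) : Meas (fun w : List α => P g L (ctv w)) :=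
  Meas.listProd L (fun y _ => (cnt_modMeas {y}).pow (g y))

variable [Fintype α] (g : α → G) (L2 : α → List α)

theorem meas_Rw [Finite A] : Meas (T.Rw g L2) :=
  Meas.finsetProd _ (fun l' _ => Meas.listProd (L2 l') (fun y _ => (e1_modMeas y l').pow _))

theorem goodF_Dq [Finite Z] (h : G) (L : List α) :
    GoodF (fun p : List α => T.Dq g h L (ctv p)) := by
  induction L with
  | nil =>
    simpa [Dq] using goodF_one
  | cons y L ih =>
    simp only [Dq]
    refine GoodF.mul (GoodF.mul ?_ ?_) ih
    · exact goodF_pow _ (fun l => e2_modMeas y l)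
    · exact GoodF.listProd L (fun z _ => goodF_pow _ (fun l => e3_modMeas z y l))

theorem B_Rw (l : α) (p : List α) : T.B (g l) (T.Rw g L2 p) =
    ∏ l', ((L2 l').map fun y =>
      (T.B (g l) (T.cA (g y) (g l'))) ^ (pos (cnt {y}) l' p)).prod := by
  unfold Rw
  rw [map_prod]
  refine Finset.prod_congr rfl (fun l' _ => ?_)
  rw [map_list_prod, List.map_map]
  congr 1
  refine List.map_congr_left (fun y _ => ?_)
  simp

theorem goodF_Fl [Finite Z] (l : α) : GoodF (T.Fl g L2 l) := by
  have h1 : GoodF (fun p : List α => T.B (g l) (T.Rw g L2 p)) := by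
    have : (fun p : List α => T.B (g l) (T.Rw g L2 p)) = fun p => ∏ l', ((L2 l').map fun y =>
      (T.B (g l) (T.cA (g y) (g l'))) ^ (pos (cnt {y}) l' p)).prod := funext (T.B_Rw g L2 l)
    rw [this]
    exact GoodF.finsetProd _ (fun l' _ => GoodF.listProd (L2 l')
      (fun y _ => goodF_pow _ (fun l'' => e4_modMeas y l' l'')))
  exact h1.mul (T.goodF_Dq g _ _)

theorem meas_Tw [Finite Z] : Meas (T.Tw g L2) :=
  Meas.finsetProd _ (fun l _ => T.goodF_Fl g L2 l l)

include T in
/-- The value of a word in the group is measurable. -/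
theorem meas_word [Finite G] [Finite A] [Finite Z] (L : List α)
    (hL : ∀ l, ∃ L1, L = L1 ++ l :: L2 l ∧ l ∉ L1 ∧ l ∉ L2 l) :
    Meas (fun w : List α => (w.map g).prod) := by
  have h1 : Meas (fun w : List α => P g L (ctv w) * T.ι (T.Rw g L2 w) * T.ζ (T.Tw g L2 w)) :=
    ((meas_P g L).mul ((T.meas_Rw g L2).comp T.ι)).mul ((T.meas_Tw g L2).comp T.ζ)
  have : (fun w : List α => (w.map g).prod) =
      fun w => P g L (ctv w) * T.ι (T.Rw g L2 w) * T.ζ (T.Tw g L2 w) :=
    funext (T.master g L2 L hL)
  rw [this]
  exact h1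

end MeasPart

end Layers

section Concrete

variable {G : Type v} [Group G]

theorem suffix_exists {α : Type u} [Fintype α] :
    ∃ (L : List α) (L2 : α → List α), ∀ l, ∃ L1, L = L1 ++ l :: L2 l ∧ l ∉ L1 ∧ l ∉ L2 l := by
  classical
  refine ⟨(Finset.univ : Finset α).toList, ?_⟩
  have hnd : (Finset.univ : Finset α).toList.Nodup := Finset.nodup_toList _
  have h : ∀ l : α, ∃ L2 : List α, ∃ L1, (Finset.univ : Finset α).toList = L1 ++ l :: L2 ∧
      l ∉ L1 ∧ l ∉ L2 := by
    intro l
    obtain ⟨L1, L2, hL⟩ := List.append_of_mem (Finset.mem_toList.2 (Finset.mem_univ l))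
    refine ⟨L2, L1, hL, ?_⟩
    rw [hL] at hnd
    have h1 := List.nodup_middle.1 hnd
    have h2 := List.nodup_cons.1 h1
    simp only [List.mem_append, not_or] at h2
    exact h2.1
  choose L2 hL2 using h
  exact ⟨L2, hL2⟩

open scoped commutatorElement in
theorem cm_eq_commutatorElement (a b : G) : cm a b = ⁅a⁻¹, b⁻¹⁆ := by
  simp [cm, commutatorElement_def]

open scoped commutatorElement in
/-- Existence of the layers in a group of nilpotency class at most three. -/
theorem exists_layers (hG : Subgroup.lowerCentralSeries (⊤ : Subgroup G) 3 = ⊥) [Finite G] :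
    ∃ (A : Type v) (_ : CommGroup A) (_ : Finite A) (Z : Type v) (_ : CommGroup Z) (_ : Finite Z),
      Nonempty (Layers G A Z) := by
  set C : Subgroup G := Subgroup.lowerCentralSeries (⊤ : Subgroup G) 1 with hC
  set Z2 : Subgroup G := Subgroup.lowerCentralSeries (⊤ : Subgroup G) 2 with hZ2
  have hC' : C = ⁅(⊤ : Subgroup G), (⊤ : Subgroup G)⁆ := rfl
  have hZ2' : Z2 = ⁅C, (⊤ : Subgroup G)⁆ := rfl
  have h3 : ⁅Z2, (⊤ : Subgroup G)⁆ = ⊥ := hG
  have hcen : ∀ z ∈ Z2, ∀ h : G, z * h = h * z := by
    intro z hz h
    have : ⁅z, h⁆ ∈ ⁅Z2, (⊤ : Subgroup G)⁆ := Subgroup.commutator_mem_commutator hz trivial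
    rw [h3, Subgroup.mem_bot] at this
    exact commutatorElement_eq_one_iff_mul_comm.1 this
  have hab : ∀ a b : G, cm a b ∈ C := by
    intro a b
    rw [cm_eq_commutatorElement, hC']
    exact Subgroup.commutator_mem_commutator trivial trivial
  have hc2 : ∀ c ∈ C, ∀ g : G, cm c g ∈ Z2 := by
    intro c hc g
    rw [cm_eq_commutatorElement, hZ2']
    exact Subgroup.commutator_mem_commutator (C.inv_mem hc) trivial
  have hCC : ⁅C, C⁆ = ⊥ := by
    rw [show ⁅C, C⁆ = ⁅⁅(⊤ : Subgroup G), (⊤ : Subgroup G)⁆, C⁆ from rfl]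
    apply Subgroup.commutator_commutator_eq_bot_of_rotate
    · rw [Subgroup.commutator_comm (⊤ : Subgroup G) C]
      exact h3
    · exact h3
  have hcomm : ∀ x ∈ C, ∀ y ∈ C, x * y = y * x := by
    intro x hx y hy
    have : ⁅x, y⁆ ∈ ⁅C, C⁆ := Subgroup.commutator_mem_commutator hx hy
    rw [hCC, Subgroup.mem_bot] at this
    exact commutatorElement_eq_one_iff_mul_comm.1 this
  let instA : CommGroup C :=
    { (inferInstance : Group C) with
      mul_comm := fun a b => Subtype.ext (hcomm a a.2 b b.2) }
  have hmemc : ∀ c ∈ C, ∀ g : G, cm c g ∈ Subgroup.center G := by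
    intro c hc g
    rw [Subgroup.mem_center_iff]
    intro h
    exact (hcen _ (hc2 c hc g) h).symm
  let instZ : CommGroup (Subgroup.center G) :=
    { (inferInstance : Group (Subgroup.center G)) with
      mul_comm := fun a b => Subtype.ext (Subgroup.mem_center_iff.1 a.2 (b : G)).symm }
  let B : G → C →* Subgroup.center G := fun g =>
    MonoidHom.mk' (fun c => ⟨cm (c : G) g, hmemc c c.2 g⟩) (by
      intro a b
      apply Subtype.ext
      show cm ((a : G) * (b : G)) g = cm (a : G) g * cm (b : G) g
      rw [cm_mul_left]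
      congr 1
      rw [mul_assoc, hcen _ (hc2 a a.2 g) (b : G)]
      simp)
  refine ⟨C, instA, inferInstance, Subgroup.center G, instZ, inferInstance, ⟨?_⟩⟩
  exact
    { ι := C.subtype
      ζ := (Subgroup.center G).subtype
      central := fun z h => (Subgroup.mem_center_iff.1 z.2 h).symm
      inj := Subtype.val_injective
      B := B
      hB := fun _ _ => rfl
      cA := fun a b => ⟨cm a b, hab a b⟩
      hcA := fun _ _ => rfl }

/-- Words evaluate measurably in a finite group of nilpotency class at most three. -/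
theorem meas_word_classThree {α : Type u} [Finite α] [Finite G]
    (hG : Subgroup.lowerCentralSeries (⊤ : Subgroup G) 3 = ⊥) (g : α → G) :
    Meas (fun w : List α => (w.map g).prod) := by
  cases nonempty_fintype α
  obtain ⟨A, _, _, Z, _, _, ⟨T⟩⟩ := exists_layers hG
  obtain ⟨L, L2, hL⟩ := suffix_exists (α := α)
  exact T.meas_word g L2 L hL

/-- Every language recognized by a finite group of nilpotency class at most three has
generalized star height at most one. -/
theorem hasGSH_classThree {α : Type u} [Finite α] [Finite G] [Group.IsNilpotent G]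
    (hG : Group.nilpotencyClass G ≤ 3) (g : α → G) (S : Set G) :
    HasGSH 1 ({w : List α | (w.map g).prod ∈ S} : Language α) := by
  have hG' : Subgroup.lowerCentralSeries (⊤ : Subgroup G) 3 = ⊥ :=
    Subgroup.lowerCentralSeries_eq_bot_iff_nilpotencyClass_le.2 hG
  exact (meas_word_classThree hG' g).preimage S

end Concrete

end Vale.Agent.Lib.P329c
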