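import Vale.Agent.Lib.P329c.Walk

/-! The measurable counting functions needed for groups of nilpotency class at most three. -/

open Computability

namespace Vale.Agent.Lib.P329c

universe u

variable {α : Type u}

open Classical in
theorem cnt_single_snoc (x : α) (w : List α) (l : α) :
    cnt {x} (w ++ [l]) = cnt {x} w + if l = x then 1 else 0 := by
  rw [cnt_snoc]
  simp

theorem pos_add (f g : List α → ℕ) (y : α) (w : List α) :
    pos (fun p => f p + g p) y w = pos f y w + pos g y w := by
  classical
  induction w using List.reverseRecOn with
  | nil => simp
  | append_singleton w l ih =>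
    simp only [pos_snoc, ih]
    by_cases h : l = y <;> simp [h]; ring

theorem pos_const_mul (c : ℕ) (f : List α → ℕ) (y : α) (w : List α) :
    pos (fun p => c * f p) y w = c * pos f y w := by
  classical
  induction w using List.reverseRecOn with
  | nil => simp
  | append_singleton w l ih =>
    simp only [pos_snoc, ih]
    by_cases h : l = y <;> simp [h]; ring

theorem pos_congr {f g : List α → ℕ} (H : ∀ p, f p = g p) (y : α) (w : List α) :
    pos f y w = pos g y w := by
  have : f = g := funext H
  rw [this]

theorem choose_two_add (a b : ℕ) :
    (a + b).choose 2 = a.choose 2 + b.choose 2 + a * b := by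
  induction b with
  | zero => simp
  | succ b ih =>
    rw [← add_assoc, Nat.choose_succ_succ' (a + b) 1, Nat.choose_succ_succ' b 1, ih]
    simp only [Nat.choose_one_right]
    ring

theorem mul_self_eq_choose (a : ℕ) : a * a = 2 * a.choose 2 + a := by
  induction a with
  | zero => simp
  | succ b ih =>
    rw [Nat.choose_succ_succ' b 1]
    simp only [Nat.choose_one_right]
    nlinarith [ih]

theorem pos_self_choose (k : ℕ) (x : α) (w : List α) :
    pos (fun p => (cnt {x} p).choose k) x w = (cnt {x} w).choose (k + 1) := by
  classical
  induction w using List.reverseRecOn with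
  | nil => simp
  | append_singleton w l ih =>
    simp only [pos_snoc, ih, cnt_single_snoc]
    by_cases h : l = x
    · simp only [if_pos h]
      rw [Nat.choose_succ_succ' (cnt {x} w) k]
      ring
    · simp [h]

/-- The count of pairs `x` before `l`. -/
theorem e1_modMeas [Finite α] (y l : α) : ModMeas (pos (cnt (α := α) {y}) l) := by
  by_cases h : l = y
  · subst h
    have h1 := (cnt_modMeas (α := α) {l}).comp_perMod (perMod_choose 2)
    refine h1.congr (fun w => ?_)
    have := pos_self_choose 1 l w
    simpa using this
  · exact walk_modMeas {y} l h perMod_id

theorem e2_modMeas [Finite α] (y l : α) :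
    ModMeas (pos (fun p : List α => (cnt {y} p).choose 2) l) := by
  by_cases h : l = y
  · subst h
    have h1 := (cnt_modMeas (α := α) {l}).comp_perMod (perMod_choose 3)
    refine h1.congr (fun w => ?_)
    exact pos_self_choose 2 l w
  · exact walk_modMeas {y} l h (perMod_choose 2)

/-- Auxiliary identity for the product of two letter counts summed over one of the letters. -/
theorem pos_mul_self_left {y z : α} (hyz : y ≠ z) (w : List α) :
    pos (fun p => cnt {y} p * cnt {z} p) y w + pos (fun p => (cnt {y} p).choose 2) z w =
      (cnt {y} w).choose 2 * cnt {z} w := by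
  classical
  induction w using List.reverseRecOn with
  | nil => simp
  | append_singleton w l ih =>
    simp only [pos_snoc, cnt_single_snoc]
    by_cases h1 : l = y
    · subst h1
      simp only [if_true, if_neg hyz, add_zero]
      rw [Nat.choose_succ_succ' (cnt {l} w) 1]
      simp only [Nat.choose_one_right]
      nlinarith [ih]
    · by_cases h2 : l = z
      · subst h2
        simp only [if_true, if_neg h1, add_zero]
        nlinarith [ih]
      · simp only [if_neg h1, if_neg h2, add_zero]
        exact ih

theorem cnt_pair {y z : α} (hyz : y ≠ z) (w : List α) :
    cnt ({y, z} : Set α) w = cnt {y} w + cnt {z} w := by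
  classical
  induction w using List.reverseRecOn with
  | nil => simp
  | append_singleton w l ih =>
    rw [cnt_snoc, cnt_single_snoc, cnt_single_snoc, ih]
    by_cases h1 : l = y
    · subst h1
      simp [hyz]
      ring
    · by_cases h2 : l = z
      · subst h2
        simp [h1]
        ring
      · simp [h1, h2]

/-- The sum over occurrences of `l` of the product of the counts of `y` and of `z` before. -/
theorem e3_modMeas [Finite α] (y z l : α) :
    ModMeas (pos (fun p : List α => cnt {y} p * cnt {z} p) l) := by
  by_cases hyz : y = z
  · subst hyz
    have h1 : ModMeas (fun w : List α =>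
        2 * pos (fun p => (cnt {y} p).choose 2) l w + pos (cnt {y}) l w) :=
      ((modMeas_const 2).mul (e2_modMeas y l)).add (e1_modMeas y l)
    refine h1.congr (fun w => ?_)
    rw [← pos_const_mul, ← pos_add]
    exact pos_congr (fun p => mul_self_eq_choose _) l w
  · by_cases h1 : l = y
    · subst h1
      have h2 : ModMeas (fun w : List α => (cnt {l} w).choose 2 * cnt {z} w) :=
        ((cnt_modMeas _).comp_perMod (perMod_choose 2)).mul (cnt_modMeas _)
      exact ModMeas.of_add_left (e2_modMeas l z) h2 (pos_mul_self_left hyz)
    · by_cases h2 : l = z
      · subst h2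
        have h3 : ModMeas (fun w : List α => (cnt {l} w).choose 2 * cnt {y} w) :=
          ((cnt_modMeas _).comp_perMod (perMod_choose 2)).mul (cnt_modMeas _)
        have h4 := ModMeas.of_add_left (e2_modMeas l y) h3 (pos_mul_self_left (Ne.symm hyz))
        refine h4.congr (fun w => ?_)
        exact pos_congr (fun p => mul_comm _ _) l w
      · have hl : l ∉ ({y, z} : Set α) := by
          simp [h1, h2]
        have h3 := walk_modMeas ({y, z} : Set α) l hl (perMod_choose 2)
        have h4 : ModMeas (fun w : List α => pos (fun p => (cnt {y} p).choose 2) l w +
            pos (fun p => (cnt {z} p).choose 2) l w) :=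
          (e2_modMeas y l).add (e2_modMeas z l)
        refine ModMeas.of_add_left h4 h3 (fun w => ?_)
        rw [← pos_add, ← pos_add]
        refine pos_congr (fun p => ?_) l w
        rw [cnt_pair hyz, choose_two_add]
        ring

/-- Identity expressing the count of `y l' l` through shorter data. -/
theorem e4_identity (y l' l : α) (w : List α) :
    pos (pos (cnt {y}) l') l w + pos (fun p => cnt {y} p * cnt {l} p) l' w +
      (open Classical in if l = l' then pos (cnt {y}) l' w else 0) =
      cnt {l} w * pos (cnt {y}) l' w := by
  classical
  induction w using List.reverseRecOn with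
  | nil => simp
  | append_singleton w c ih =>
    simp only [pos_snoc, cnt_single_snoc]
    by_cases h3 : l = l'
    · subst h3
      by_cases h1 : c = l
      · subst h1
        simp only [if_true, add_zero] at ih ⊢
        nlinarith [ih]
      · simp only [if_neg h1, if_true, add_zero] at ih ⊢
        exact ih
    · simp only [if_neg h3, add_zero] at ih ⊢
      by_cases h1 : c = l
      · have h2 : c ≠ l' := fun h => h3 (h1.symm.trans h)
        simp only [if_pos h1, if_neg h2, add_zero]
        nlinarith [ih]
      · by_cases h2 : c = l'
        · simp only [if_neg h1, if_pos h2, add_zero]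
          nlinarith [ih]
        · simp only [if_neg h1, if_neg h2, add_zero]
          exact ih

/-- The count of subwords `y l' l`. -/
theorem e4_modMeas [Finite α] (y l' l : α) :
    ModMeas (pos (pos (cnt (α := α) {y}) l') l) := by
  classical
  have h0 : ModMeas (fun w : List α =>
      pos (fun p => cnt {y} p * cnt {l} p) l' w + (if l = l' then pos (cnt {y}) l' w else 0)) := by
    by_cases h : l = l'
    · simp only [if_pos h]
      exact (e3_modMeas y l l').add (e1_modMeas y l')
    · simp only [if_neg h, add_zero]
      exact e3_modMeas y l l'
  have h1 : ModMeas (fun w : List α => cnt {l} w * pos (cnt {y}) l' w) :=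
    (cnt_modMeas _).mul (e1_modMeas y l')
  refine ModMeas.of_add_left h0 h1 (fun w => ?_)
  rw [← e4_identity y l' l w]
  ring

end Vale.Agent.Lib.P329c
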