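import Mathlib

open Computability

namespace Vale.Agent.Lib.P329c

universe u

/-- Generalized regular expressions over an alphabet: constants, letters, union,
concatenation, complement and Kleene star. -/
inductive GRE (α : Type u) : Type u
  | zero : GRE α
  | one : GRE α
  | letter : α → GRE α
  | add : GRE α → GRE α → GRE α
  | mul : GRE α → GRE α → GRE α
  | compl : GRE α → GRE α
  | star : GRE α → GRE α

namespace GRE

variable {α : Type u}

/-- The language denoted by an expression; complement is taken in the set of all words. -/
def denote : GRE α → Language α
  | zero => 0
  | one => 1
  | letter a => {[a]}
  | add P Q => denote P + denote Q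
  | mul P Q => denote P * denote Q
  | compl P => (denote P)ᶜ
  | star P => (denote P)∗

/-- The star height of an expression. -/
def height : GRE α → ℕ
  | zero => 0
  | one => 0
  | letter _ => 0
  | add P Q => max (height P) (height Q)
  | mul P Q => max (height P) (height Q)
  | compl P => height P
  | star P => height P + 1

end GRE

/-- The language `L` is denoted by a generalized regular expression of star height at most `n`,
that is, its generalized star height is at most `n`. -/
def HasGSH {α : Type u} (n : ℕ) (L : Language α) : Prop :=
  ∃ e : GRE α, e.height ≤ n ∧ e.denote = L

end Vale.Agent.Lib.P329c
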