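import Vale.Agent.Lib.P329c.Automaton

/-! Functions on words all of whose fibres have generalized star height at most one. -/

open Computability

namespace Vale.Agent.Lib.P329c

universe u v w

variable {α : Type u} {β : Type v} {γ : Type w}

/-- All fibres of `f` have generalized star height at most one. -/
def Meas (f : List α → β) : Prop := ∀ b, HasGSH 1 (lang fun w => f w = b)

theorem Meas.preimage [Finite β] {f : List α → β} (hf : Meas f) (P : Set β) :
    HasGSH 1 (lang fun w => f w ∈ P) := by
  classical
  let F : β → Language α := fun b => if b ∈ P then lang (fun w => f w = b) else 0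
  have hF : ∀ b, HasGSH 1 (F b) := by
    intro b
    by_cases hb : b ∈ P
    · simp only [F, if_pos hb]
      exact hf b
    · simp only [F, if_neg hb]
      exact hasGSH_zero
  refine (HasGSH.iUnion hF).congr (fun w => ?_)
  show f w ∈ P ↔ ∃ b, w ∈ F b
  constructor
  · intro h
    refine ⟨f w, ?_⟩
    simp only [F, if_pos h]
    exact rfl
  · rintro ⟨b, hw⟩
    by_cases hb : b ∈ P
    · simp only [F, if_pos hb] at hw
      have h' : f w = b := hw
      rw [h']; exact hb
    · simp only [F, if_neg hb] at hw
      exact absurd hw (Language.notMem_zero _)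

/-- A function determined by a measurable function to a finite type is measurable. -/
theorem Meas.of_factor [Finite β] {f : List α → β} {g : List α → γ} (hf : Meas f)
    (h : ∀ w w', f w = f w' → g w = g w') : Meas g := by
  intro c
  have := hf.preimage {b | ∃ w, f w = b ∧ g w = c}
  refine this.congr (fun w => ?_)
  show g w = c ↔ ∃ w', f w' = f w ∧ g w' = c
  constructor
  · intro hw
    exact ⟨w, rfl, hw⟩
  · rintro ⟨w', h1, h2⟩
    rw [← h _ _ h1]; exact h2

theorem Meas.comp [Finite β] {f : List α → β} (hf : Meas f) (k : β → γ) :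
    Meas (fun w => k (f w)) :=
  hf.of_factor (fun w w' h => by simp only [h])

theorem meas_const (c : β) : Meas (fun _ : List α => c) := by
  intro b
  by_cases h : c = b
  · refine (hasGSH_top (α := α)).congr (fun w => ?_)
    show c = b ↔ True
    simp [h]
  · refine (hasGSH_zero (α := α)).congr (fun w => ?_)
    show c = b ↔ False
    simp [h]

theorem Meas.pair {f : List α → β} {g : List α → γ} (hf : Meas f) (hg : Meas g) :
    Meas (fun w => (f w, g w)) := by
  rintro ⟨b, c⟩
  refine ((hf b).inf (hg c)).congr (fun w => ?_)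
  show (f w, g w) = (b, c) ↔ (f w = b ∧ g w = c)
  simp

theorem Meas.map₂ {δ : Type*} [Finite β] [Finite γ] {f : List α → β} {g : List α → γ}
    (hf : Meas f) (hg : Meas g) (k : β → γ → δ) : Meas (fun w => k (f w) (g w)) :=
  (hf.pair hg).comp (fun p => k p.1 p.2)

/-- A family of measurable functions, indexed by a finite type, is measurable. -/
theorem Meas.pi {ι : Type*} [Finite ι] {β : ι → Type*} {f : ∀ i, List α → β i}
    (hf : ∀ i, Meas (f i)) : Meas (fun w i => f i w) := by
  intro b
  refine (HasGSH.iInter (fun i => hf i (b i))).congr (fun w => ?_)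
  show (fun i => f i w) = b ↔ ∀ i, f i w = b i
  exact funext_iff

theorem Meas.mul [Finite β] [Mul β] {f g : List α → β} (hf : Meas f) (hg : Meas g) :
    Meas (fun w => f w * g w) := hf.map₂ hg (· * ·)

theorem Meas.finsetProd {ι : Type*} [CommMonoid β] [Finite β] (s : Finset ι) {f : ι → List α → β}
    (hf : ∀ i ∈ s, Meas (f i)) : Meas (fun w => ∏ i ∈ s, f i w) := by
  classical
  induction s using Finset.induction_on with
  | empty => simpa using meas_const (1 : β)
  | insert a s ha ih =>
    have h1 := hf a (Finset.mem_insert_self a s)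
    have h2 := ih (fun i hi => hf i (Finset.mem_insert_of_mem hi))
    simpa [Finset.prod_insert ha] using h1.mul h2

/-- Natural number valued functions on words whose residues modulo every `n` are measurable. -/
def ModMeas (f : List α → ℕ) : Prop := ∀ n : ℕ, n ≠ 0 → Meas (fun w => (f w : ZMod n))

theorem modMeas_const (c : ℕ) : ModMeas (fun _ : List α => c) :=
  fun _ _ => meas_const _

theorem finite_zmod {n : ℕ} (hn : n ≠ 0) : Finite (ZMod n) := by
  haveI : NeZero n := ⟨hn⟩
  infer_instance

theorem ModMeas.add {f g : List α → ℕ} (hf : ModMeas f) (hg : ModMeas g) :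
    ModMeas (fun w => f w + g w) := by
  intro n hn
  have := finite_zmod hn
  have := (hf n hn).map₂ (hg n hn) (· + ·)
  simpa using this

theorem ModMeas.mul {f g : List α → ℕ} (hf : ModMeas f) (hg : ModMeas g) :
    ModMeas (fun w => f w * g w) := by
  intro n hn
  have := finite_zmod hn
  have := (hf n hn).map₂ (hg n hn) (· * ·)
  simpa using this

/-- If `f + g = h` and `g`, `h` are fine, then `f` is fine. -/
theorem ModMeas.of_add_left {f g h : List α → ℕ} (hg : ModMeas g) (hh : ModMeas h)
    (H : ∀ w, f w + g w = h w) : ModMeas f := by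
  intro n hn
  have := finite_zmod hn
  have := (hh n hn).map₂ (hg n hn) (· - ·)
  refine this.of_factor (fun w w' hw => ?_)
  have e : ∀ w, (f w : ZMod n) = (h w : ZMod n) - (g w : ZMod n) := by
    intro w
    rw [← H w]
    push_cast
    ring
  rw [e w, e w']
  exact hw

theorem ModMeas.congr {f g : List α → ℕ} (hf : ModMeas f) (H : ∀ w, g w = f w) : ModMeas g := by
  have : g = f := funext H
  rw [this]
  exact hf

/-- Reduction modulo a multiple. -/
theorem ModMeas.of_mod {f : List α → ℕ}
    (H : ∀ n : ℕ, n ≠ 0 → ∃ N : ℕ, N ≠ 0 ∧ n ∣ N ∧ Meas (fun w => f w % N)) : ModMeas f := by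
  intro n hn
  obtain ⟨N, hN, hd, hm⟩ := H n hn
  have : Finite (Fin N) := inferInstance
  have hm' : Meas (fun w => (⟨f w % N, Nat.mod_lt _ (Nat.pos_of_ne_zero hN)⟩ : Fin N)) := by
    intro b
    refine (hm b.val).congr (fun w => ?_)
    show (⟨f w % N, _⟩ : Fin N) = b ↔ f w % N = b.val
    exact Fin.ext_iff
  refine hm'.of_factor (fun w w' hw => ?_)
  have h1 : f w % N = f w' % N := Fin.ext_iff.1 hw
  rw [ZMod.natCast_eq_natCast_iff]
  exact (show f w ≡ f w' [MOD N] from h1).of_dvd hd

/-- If `c * f` is fine with `c ≠ 0`, then `f` is fine. -/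
theorem ModMeas.of_mul_left {f : List α → ℕ} {c : ℕ} (hc : c ≠ 0)
    (h : ModMeas (fun w => c * f w)) : ModMeas f := by
  intro n hn
  have hN : c * n ≠ 0 := mul_ne_zero hc hn
  have := finite_zmod hN
  refine (h (c * n) hN).of_factor (fun w w' hw => ?_)
  rw [ZMod.natCast_eq_natCast_iff] at hw ⊢
  have h1 : c * f w ≡ c * f w' [MOD c * n] := by
    simpa using hw
  exact Nat.ModEq.mul_left_cancel' hc h1

/-- Powers in a finite group of a fine exponent. -/
theorem ModMeas.pow {G : Type*} [Group G] [Finite G] {f : List α → ℕ} (hf : ModMeas f) (g : G) :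
    Meas (fun w => g ^ f w) := by
  have hn : Nat.card G ≠ 0 := Nat.card_pos.ne'
  have := finite_zmod hn
  refine (hf _ hn).of_factor (fun w w' hw => ?_)
  rw [ZMod.natCast_eq_natCast_iff] at hw
  rw [← pow_mod_natCard g (f w), ← pow_mod_natCard g (f w')]
  rw [show f w % Nat.card G = f w' % Nat.card G from hw]

end Vale.Agent.Lib.P329c
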