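import Vale.Agent.Lib.P329c.Meas

/-! Counting letters conditioned on a residue of the number of earlier letters from a set. -/

open Computability

namespace Vale.Agent.Lib.P329c

universe u

variable {α : Type u}

open Classical in
/-- One step of the tower automaton on natural numbers. -/
noncomputable def towerStep (S Y : Set α) (m : ℕ) (v : ℕ) (l : α) : ℕ :=
  if l ∈ S then v + 1 else if l ∈ Y ∧ m ∣ v then v + m else v

/-- The tower automaton on residues modulo `N`. -/
noncomputable def towerFin (S Y : Set α) (m N : ℕ) (hN : 0 < N) (s : Fin N) (l : α) : Fin N :=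
  ⟨towerStep S Y m s.val l % N, Nat.mod_lt _ hN⟩

theorem towerStep_mod (S Y : Set α) {m N : ℕ} (hmN : m ∣ N) (v : ℕ) (l : α) :
    towerStep S Y m (v % N) l % N = towerStep S Y m v l % N := by
  classical
  unfold towerStep
  by_cases h1 : l ∈ S
  · simp only [if_pos h1]
    exact Nat.mod_add_mod v N 1
  · simp only [if_neg h1]
    have hd : m ∣ v % N ↔ m ∣ v := (Nat.dvd_mod_iff hmN)
    by_cases h2 : l ∈ Y ∧ m ∣ v
    · have h2' : l ∈ Y ∧ m ∣ v % N := ⟨h2.1, hd.2 h2.2⟩
      simp only [if_pos h2, if_pos h2']
      exact Nat.mod_add_mod v N m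
    · have h2' : ¬ (l ∈ Y ∧ m ∣ v % N) := fun h => h2 ⟨h.1, hd.1 h.2⟩
      simp only [if_neg h2, if_neg h2']
      exact Nat.mod_mod v N

theorem towerFin_foldl (S Y : Set α) {m N : ℕ} (hN : 0 < N) (hmN : m ∣ N) (w : List α) (v0 : ℕ) :
    (w.foldl (towerFin S Y m N hN) ⟨v0 % N, Nat.mod_lt _ hN⟩) =
      ⟨(w.foldl (towerStep S Y m) v0) % N, Nat.mod_lt _ hN⟩ := by
  induction w generalizing v0 with
  | nil => rfl
  | cons l w ih =>
    simp only [List.foldl_cons]
    rw [← ih]
    congr 1
    exact Fin.ext (towerStep_mod S Y hmN v0 l)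

theorem towerFin_valid (S Y : Set α) {m N : ℕ} (hm : 0 < m) (hN : 0 < N) (hmN : m ∣ N)
    (s : Fin N) (l : α) (_hs : s ≠ ⟨0, hN⟩) :
    towerFin S Y m N hN s l = ⟨0, hN⟩ ∨ towerFin S Y m N hN s l = s ∨
      s.val < (towerFin S Y m N hN s l).val := by
  classical
  have hsN := s.isLt
  have key : ∀ x, s.val ≤ x → x ≤ N → towerStep S Y m s.val l = x → (x = s.val ∨ s.val < x) →
      towerFin S Y m N hN s l = ⟨0, hN⟩ ∨ towerFin S Y m N hN s l = s ∨
      s.val < (towerFin S Y m N hN s l).val := by
    intro x _ hxN hx hx'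
    by_cases hxeq : x = N
    · left
      apply Fin.ext
      simp [towerFin, hx, hxeq]
    · have hlt : x < N := lt_of_le_of_ne hxN hxeq
      have hv : (towerFin S Y m N hN s l).val = x := by
        simp [towerFin, hx, Nat.mod_eq_of_lt hlt]
      rcases hx' with h | h
      · right; left
        apply Fin.ext
        rw [hv, h]
      · right; right
        rw [hv]
        exact h
  unfold towerStep at key
  by_cases h1 : l ∈ S
  · refine key (s.val + 1) (by omega) (by omega) (by simp [h1]) (Or.inr (by omega))
  · by_cases h2 : l ∈ Y ∧ m ∣ s.val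
    · have hle : s.val + m ≤ N := by
        obtain ⟨c, hc⟩ := h2.2
        obtain ⟨d, hd⟩ := hmN
        have h3 : m * c < m * d := by rw [← hc, ← hd]; exact hsN
        have h4 : c < d := lt_of_mul_lt_mul_left h3 (Nat.zero_le m)
        have h5 : m * (c + 1) ≤ m * d := Nat.mul_le_mul_left m h4
        rw [hc, hd]
        linarith [Nat.mul_succ m c]
      exact key (s.val + m) (by omega) hle (by simp [h1, h2]) (Or.inr (by omega))
    · exact key s.val le_rfl hsN.le (by simp [h1, h2]) (Or.inl rfl)

/-- The tower automaton run is measurable modulo any multiple of `m`. -/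
theorem tower_meas [Finite α] (S Y : Set α) {m N : ℕ} (hm : 0 < m) (hN : 0 < N) (hmN : m ∣ N)
    (v0 : ℕ) : Meas (fun w : List α => (w.foldl (towerStep S Y m) v0) % N) := by
  intro b
  have h := firstReturn (towerFin S Y m N hN) ⟨0, hN⟩ (fun s => s.val)
    (fun s a hs => towerFin_valid S Y hm hN hmN s a hs) ⟨v0 % N, Nat.mod_lt _ hN⟩
  by_cases hb : b < N
  · refine (h ⟨b, hb⟩).congr (fun w => ?_)
    show (w.foldl (towerStep S Y m) v0) % N = b ↔
      w.foldl (towerFin S Y m N hN) ⟨v0 % N, Nat.mod_lt _ hN⟩ = ⟨b, hb⟩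
    rw [towerFin_foldl S Y hN hmN]
    simp
  · refine hasGSH_zero.congr (fun w => ?_)
    show (w.foldl (towerStep S Y m) v0) % N = b ↔ False
    have := Nat.mod_lt (w.foldl (towerStep S Y m) v0) hN
    constructor
    · intro h'; omega
    · exact False.elim

theorem tower_modMeas [Finite α] (S Y : Set α) {m : ℕ} (hm : 0 < m) (v0 : ℕ) :
    ModMeas (fun w : List α => w.foldl (towerStep S Y m) v0) := by
  refine ModMeas.of_mod (fun n hn => ⟨m * n, mul_ne_zero hm.ne' hn, Dvd.intro_left m rfl, ?_⟩)
  exact tower_meas S Y hm (Nat.mul_pos hm (Nat.pos_of_ne_zero hn)) (Dvd.intro n rfl) v0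

open Classical in
/-- The number of letters of `w` lying in `S`. -/
noncomputable def cnt (S : Set α) (w : List α) : ℕ := w.countP (fun l => decide (l ∈ S))

@[simp] theorem cnt_nil (S : Set α) : cnt S [] = 0 := rfl

open Classical in
theorem cnt_snoc (S : Set α) (w : List α) (l : α) :
    cnt S (w ++ [l]) = cnt S w + if l ∈ S then 1 else 0 := by
  unfold cnt
  rw [List.countP_append]
  simp [List.countP_cons]

open Classical in
/-- The sum of `f` over the prefixes of `w` that precede an occurrence of `y`. -/
noncomputable def posAux (f : List α → ℕ) (y : α) : List α → List α → ℕ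
  | _, [] => 0
  | p, l :: w => (if l = y then f p else 0) + posAux f y (p ++ [l]) w

/-- The sum of `f` over the prefixes of `w` that precede an occurrence of `y`. -/
noncomputable def pos (f : List α → ℕ) (y : α) (w : List α) : ℕ := posAux f y [] w

@[simp] theorem pos_nil (f : List α → ℕ) (y : α) : pos f y [] = 0 := rfl

open Classical in
theorem posAux_snoc (f : List α → ℕ) (y : α) (w : List α) (l : α) (p : List α) :
    posAux f y p (w ++ [l]) = posAux f y p w + (if l = y then f (p ++ w) else 0) := by
  induction w generalizing p with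
  | nil => simp [posAux]
  | cons c w ih =>
    simp only [List.cons_append, posAux]
    rw [ih]
    simp [add_assoc]

open Classical in
theorem pos_snoc (f : List α → ℕ) (y : α) (w : List α) (l : α) :
    pos f y (w ++ [l]) = pos f y w + (if l = y then f w else 0) := by
  unfold pos
  rw [posAux_snoc]
  simp

theorem foldl_snoc' {β : Type*} (δ : β → α → β) (s : β) (w : List α) (l : α) :
    (w ++ [l]).foldl δ s = δ (w.foldl δ s) l := by
  simp

open Classical in
/-- Value of the tower run. -/
theorem tower_spec (S : Set α) (y : α) (hy : y ∉ S) (m v0 : ℕ) (w : List α) :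
    w.foldl (towerStep S {y} m) v0 =
      v0 + cnt S w + m * pos (fun p => if m ∣ v0 + cnt S p then 1 else 0) y w := by
  induction w using List.reverseRecOn with
  | nil => simp
  | append_singleton w l ih =>
    rw [foldl_snoc', ih, cnt_snoc, pos_snoc]
    unfold towerStep
    by_cases h1 : l ∈ S
    · have h2 : l ≠ y := fun h => hy (h ▸ h1)
      simp [h1, h2]
      ring
    · simp only [if_neg h1, add_zero]
      by_cases h2 : l = y
      · subst h2
        by_cases h3 : m ∣ v0 + cnt S w + m * pos (fun p => if m ∣ v0 + cnt S p then 1 else 0) l w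
        · have h4 : m ∣ v0 + cnt S w := (Nat.dvd_add_left (Dvd.intro _ rfl)).1 h3
          simp [h3, h4]
          ring
        · have h4 : ¬ m ∣ v0 + cnt S w := fun h => h3 (Dvd.dvd.add h (Dvd.intro _ rfl))
          simp [h3, h4]
      · simp [h2]

/-- Letter counts are fine. -/
theorem cnt_modMeas [Finite α] (S : Set α) : ModMeas (cnt (α := α) S) := by
  have h := tower_modMeas (α := α) S ∅ (m := 1) Nat.one_pos 0
  refine h.congr (fun w => ?_)
  induction w using List.reverseRecOn with
  | nil => simp
  | append_singleton w l ih =>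
    classical
    rw [foldl_snoc', ← ih, cnt_snoc]
    unfold towerStep
    by_cases h1 : l ∈ S <;> simp [h1]

open Classical in
theorem indicator_modMeas [Finite α] (S : Set α) (y : α) (hy : y ∉ S) {m : ℕ} (hm : 0 < m)
    (v0 : ℕ) : ModMeas (pos (fun p : List α => if m ∣ v0 + cnt S p then 1 else 0) y) := by
  have h1 := tower_modMeas (α := α) S {y} hm v0
  have h2 : ModMeas (fun w : List α => v0 + cnt S w) := (modMeas_const v0).add (cnt_modMeas S)
  have h3 : ModMeas (fun w : List α => m * pos (fun p => if m ∣ v0 + cnt S p then 1 else 0) y w) :=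
    ModMeas.of_add_left h2 h1 (fun w => by rw [tower_spec S y hy m v0 w]; ring)
  exact ModMeas.of_mul_left hm.ne' h3

/-- Functions on the natural numbers which are periodic modulo every `n`. -/
def PerMod (ψ : ℕ → ℕ) : Prop := ∀ n : ℕ, n ≠ 0 → ∃ m, 0 < m ∧ ∀ N, (ψ (N + m) : ZMod n) = ψ N

theorem PerMod.mod_eq {ψ : ℕ → ℕ} {n m : ℕ} (hm : 0 < m) (h : ∀ N, (ψ (N + m) : ZMod n) = ψ N)
    (N : ℕ) : (ψ N : ZMod n) = ψ (N % m) := by
  have h1 : ∀ q r, (ψ (r + m * q) : ZMod n) = ψ r := by
    intro q r
    induction q with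
    | zero => simp
    | succ q ih =>
      rw [Nat.mul_succ, ← add_assoc, h, ih]
  conv_lhs => rw [← Nat.mod_add_div N m]
  exact h1 _ _

theorem perMod_const (c : ℕ) : PerMod (fun _ => c) := fun _ _ => ⟨1, Nat.one_pos, fun _ => rfl⟩

theorem perMod_id : PerMod (fun N => N) := by
  intro n hn
  refine ⟨n, Nat.pos_of_ne_zero hn, fun N => ?_⟩
  simp

/-- Discrete primitives of functions periodic modulo every `n` are of the same kind. -/
theorem PerMod.primitive {ψ Ψ : ℕ → ℕ} (hψ : PerMod ψ) (H : ∀ N, Ψ (N + 1) = Ψ N + ψ N) :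
    PerMod Ψ := by
  intro n hn
  obtain ⟨m, hm, hper⟩ := hψ n hn
  have hD : ∀ N, (Ψ (N + m) : ZMod n) - Ψ N = (Ψ m : ZMod n) - Ψ 0 := by
    intro N
    induction N with
    | zero => simp
    | succ N ih =>
      rw [← ih, show N + 1 + m = N + m + 1 by ring, H, H]
      push_cast
      rw [hper]
      ring
  have hk : ∀ k N, (Ψ (N + m * k) : ZMod n) = Ψ N + k * ((Ψ m : ZMod n) - Ψ 0) := by
    intro k N
    induction k with
    | zero => simp
    | succ k ih =>
      have := hD (N + m * k)
      rw [ih] at this
      rw [Nat.mul_succ, ← add_assoc]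
      push_cast
      linear_combination this
  refine ⟨m * n, Nat.mul_pos hm (Nat.pos_of_ne_zero hn), fun N => ?_⟩
  rw [hk]
  simp

theorem perMod_choose (k : ℕ) : PerMod (fun N => N.choose k) := by
  induction k with
  | zero => simpa using perMod_const 1
  | succ k ih =>
    refine ih.primitive (fun N => ?_)
    rw [Nat.choose_succ_succ']
    ring

theorem ModMeas.comp_perMod {f : List α → ℕ} (hf : ModMeas f) {ψ : ℕ → ℕ} (hψ : PerMod ψ) :
    ModMeas (fun w => ψ (f w)) := by
  intro n hn
  obtain ⟨m, hm, hper⟩ := hψ n hn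
  have := finite_zmod hm.ne'
  refine (hf m hm.ne').of_factor (fun w w' hw => ?_)
  rw [ZMod.natCast_eq_natCast_iff] at hw
  rw [PerMod.mod_eq hm hper (f w), PerMod.mod_eq hm hper (f w')]
  rw [show f w % m = f w' % m from hw]

open Classical in
theorem dvd_sub_add_iff {m h N : ℕ} (hh : h < m) : m ∣ (m - h) + N ↔ N % m = h := by
  have h1 : (m - h) + N = (m - h) + N % m + m * (N / m) := by
    have := Nat.mod_add_div N m
    omega
  rw [h1, Nat.dvd_add_left (Dvd.intro _ rfl)]
  have hr : N % m < m := Nat.mod_lt _ (by omega)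
  constructor
  · rintro ⟨c, hc⟩
    have hc1 : c = 1 := by
      have h2 : m * c < m * 2 := by rw [← hc]; omega
      have h3 : c < 2 := lt_of_mul_lt_mul_left h2 (Nat.zero_le m)
      have h4 : c ≠ 0 := by
        rintro rfl
        simp at hc
        omega
      omega
    subst hc1
    simp at hc
    omega
  · intro h2
    rw [h2]
    exact ⟨1, by omega⟩

open Classical in
/-- Main walk lemma: the sum over occurrences of `y` of a function, periodic modulo every `n`, of
the number of earlier letters from `S` is fine, if `y` is not in `S`. -/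
theorem walk_modMeas [Finite α] (S : Set α) (y : α) (hy : y ∉ S) {ψ : ℕ → ℕ} (hψ : PerMod ψ) :
    ModMeas (pos (fun p : List α => ψ (cnt S p)) y) := by
  intro n hn
  obtain ⟨m, hm, hper⟩ := hψ n hn
  have := finite_zmod hn
  have hI : ∀ h : Fin m, Meas (fun w : List α =>
      ((pos (fun p => if m ∣ (m - h.val) + cnt S p then 1 else 0) y w : ℕ) : ZMod n)) :=
    fun h => indicator_modMeas S y hy hm (m - h.val) n hn
  refine (Meas.pi hI).of_factor (fun w w' hw => ?_)
  have key : ∀ w : List α, ((pos (fun p => ψ (cnt S p)) y w : ℕ) : ZMod n) =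
      ∑ h : Fin m, (ψ h.val : ZMod n) *
        ((pos (fun p => if m ∣ (m - h.val) + cnt S p then 1 else 0) y w : ℕ) : ZMod n) := by
    intro w
    induction w using List.reverseRecOn with
    | nil => simp
    | append_singleton w l ih =>
      simp only [pos_snoc]
      push_cast
      simp only [mul_add, Finset.sum_add_distrib]
      rw [← ih]
      congr 1
      by_cases h2 : l = y
      · simp only [if_pos h2]
        have h3 : (ψ (cnt S w) : ZMod n) = ψ (cnt S w % m) := PerMod.mod_eq hm hper _
        rw [h3, Finset.sum_eq_single (⟨cnt S w % m, Nat.mod_lt _ hm⟩ : Fin m)]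
        · have : m ∣ (m - cnt S w % m) + cnt S w :=
            (dvd_sub_add_iff (Nat.mod_lt _ hm)).2 rfl
          simp [this]
        · intro b _ hb
          have : ¬ m ∣ (m - b.val) + cnt S w := by
            intro hd
            apply hb
            apply Fin.ext
            exact ((dvd_sub_add_iff b.isLt).1 hd).symm
          simp [this]
        · simp
      · simp [h2]
  rw [key w, key w']
  have hw' : (fun h : Fin m =>
      ((pos (fun p => if m ∣ (m - h.val) + cnt S p then 1 else 0) y w : ℕ) : ZMod n)) =
      (fun h : Fin m =>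
      ((pos (fun p => if m ∣ (m - h.val) + cnt S p then 1 else 0) y w' : ℕ) : ZMod n)) := hw
  refine Finset.sum_congr rfl (fun h _ => ?_)
  rw [congrFun hw' h]

end Vale.Agent.Lib.P329c
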